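import Vale.Agent.P037.AllTwoByTwo
import Vale.Agent.P037.Statement

/-- Polynomial removal for every 2×2 binary pattern: there is `c > 0` such that for every
`H : Fin 2 → Fin 2 → Bool`, every `n ≥ 1`, every `0 < ε < 1` and every binary `n × n` matrix `A`
that is `ε`-far from `H`-free, the number of ordered copies of `H` in `A` is at least
`c ε^84 n^4`. -/
theorem Vale.Agent.Results.P037.AllPatterns2x2.result :
    ∃ c : ℝ, 0 < c ∧ ∀ H : Fin 2 → Fin 2 → Bool, ∀ n : ℕ, 1 ≤ n → ∀ ε : ℝ, 0 < ε → ε < 1 →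
      ∀ A : Fin n → Fin n → Bool, Vale.Agent.P037.IsFarFrom H A ε →
        c * ε ^ 84 * (n : ℝ) ^ 4 ≤ (Vale.Agent.P037.numOrderedCopies H A : ℝ) :=
  ⟨Vale.Agent.P037.c₀, Vale.Agent.P037.c₀_pos, fun H n hn ε hε hε1 A hfar =>
    Vale.Agent.P037.removal_all H n hn ε hε hε1 A hfar⟩
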