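import Vale.Agent.P037.BlockFinal

/-- Polynomial removal for every `k × k` pattern obtained by repeating rows and columns of a
`2 × 2` pattern, of an alternating `m × 2` pattern, or of the transpose of such a pattern. -/
theorem Vale.Agent.Results.P037.BlockPatterns.result {k : ℕ} (H : Fin k → Fin k → Bool)
    (hH : Vale.Agent.P037.Block.IsBlockPattern H) :
    ∃ (c : ℝ) (C : ℕ), 0 < c ∧ ∀ n : ℕ, 1 ≤ n → ∀ ε : ℝ, 0 < ε → ε < 1 →
      ∀ A : Fin n → Fin n → Bool, Vale.Agent.P037.IsFarFrom H A ε →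
        c * ε ^ C * (n : ℝ) ^ (2 * k) ≤ (Vale.Agent.P037.numOrderedCopies H A : ℝ) :=
  Vale.Agent.P037.Block.block_removal H hH
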