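import Vale.Agent.P037.Diagonal
import Vale.Agent.P037.Statement

/-- Polynomial removal for the two 2×2 permutation patterns: there is `c > 0` such that for
`H = [[1,0],[0,1]]` and `H = [[0,1],[1,0]]`, every `n ≥ 1`, every `0 < ε < 1` and every binary
`n × n` matrix `A` that is `ε`-far from `H`-free, the number of ordered copies of `H` in `A` is at
least `c ε^84 n^4`. -/
theorem Vale.Agent.Results.P037.Diagonal.result :
    ∃ c : ℝ, 0 < c ∧ ∀ H : Fin 2 → Fin 2 → Bool,
      (H = ![![true, false], ![false, true]] ∨ H = ![![false, true], ![true, false]]) →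
      ∀ n : ℕ, 1 ≤ n → ∀ ε : ℝ, 0 < ε → ε < 1 → ∀ A : Fin n → Fin n → Bool,
        Vale.Agent.P037.IsFarFrom H A ε →
          c * ε ^ 84 * (n : ℝ) ^ 4 ≤ (Vale.Agent.P037.numOrderedCopies H A : ℝ) := by
  refine ⟨1 / ((2 ^ 114) ^ 4 * 3 ^ 84 : ℝ), by positivity, ?_⟩
  intro H hH n hn ε hε hε1 A hfar
  exact Vale.Agent.P037.main_both H hH hn ε hε hε1 A hfar
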